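import Mathlib
import Vale.Agent.Lib.P032.Rational

namespace Vale.Agent.Results.P032.RationalPlane

open Vale.Agent.Lib.P032

/-- The unit-distance graph on the rational plane is 2-colourable: there is a colouring of
`ℚ × ℚ` with two colours in which any two points at Euclidean distance exactly `1` receive
different colours.  Consequently a unit-distance graph in the plane that is not bipartite (in
particular any unit-distance graph needing five colours) cannot have all its vertices at
rational points. -/
theorem result :
    ∃ c : ℚ × ℚ → Fin 2, ∀ P Q : ℚ × ℚ,
      (P.1 - Q.1) ^ 2 + (P.2 - Q.2) ^ 2 = 1 → c P ≠ c Q :=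
  ⟨colour, colour_ne⟩

end Vale.Agent.Results.P032.RationalPlane
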